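import Mathlib

namespace Vale.Agent.Results.P061.CompleteLower

open Finset Classical

/-- A finite loopless multigraph on the vertex type `V`; `E` is the type of edge copies and
`ends e` is the unordered pair of endpoints of the copy `e`. -/
structure MGraph (V E : Type) where
  ends : E → Sym2 V
  loopless : ∀ e, ¬ (ends e).IsDiag

variable {V E : Type} [Fintype V] [Fintype E]

/-- The edge copy `e` has exactly one endpoint in `S`. -/
def MGraph.Crosses (G : MGraph V E) (S : Finset V) (e : E) : Prop :=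
  ∃ u v, G.ends e = s(u, v) ∧ u ∈ S ∧ v ∉ S

/-- The number of edge copies of `F` with exactly one endpoint in `S`. -/
noncomputable def MGraph.cutSize (G : MGraph V E) (F : Finset E) (S : Finset V) : ℕ :=
  (F.filter (fun e => G.Crosses S e)).card

/-- `k`-edge-connectivity: every nonempty proper vertex set is left by at least `k` copies. -/
def MGraph.EdgeConnected (G : MGraph V E) (k : ℕ) : Prop :=
  ∀ S : Finset V, S.Nonempty → S ≠ Finset.univ → k ≤ G.cutSize Finset.univ S

/-- The simple graph on `V` whose edges are the endpoint pairs of the copies in `F`. -/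
def MGraph.graphOf (G : MGraph V E) (F : Finset E) : SimpleGraph V :=
  SimpleGraph.fromEdgeSet {x | ∃ e ∈ F, G.ends e = x}

/-- A spanning tree: `|V| - 1` edge copies forming a connected graph on `V`. -/
def MGraph.IsSpanningTree (G : MGraph V E) (T : Finset E) : Prop :=
  T.card + 1 = Fintype.card V ∧ (G.graphOf T).Connected

/-- `α`-thinness of the set `T` of edge copies. -/
def MGraph.IsThin (G : MGraph V E) (T : Finset E) (α : ℝ) : Prop :=
  ∀ S : Finset V, S.Nonempty → S ≠ Finset.univ →
    (G.cutSize T S : ℝ) ≤ α * (G.cutSize Finset.univ S : ℝ)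

/-- The complete graph on `Fin n` as a multigraph. -/
def completeM (n : ℕ) : MGraph (Fin n) {x : Sym2 (Fin n) // ¬ x.IsDiag} where
  ends := Subtype.val
  loopless := fun e => e.2

theorem complete_cut (n : ℕ) (S : Finset (Fin n)) :
    (completeM n).cutSize Finset.univ S = S.card * (n - S.card) := by
  have h1 : (S ×ˢ Sᶜ).card = S.card * (n - S.card) := by
    rw [Finset.card_product, Finset.card_compl, Fintype.card_fin]
  rw [← h1]
  unfold MGraph.cutSize
  symm
  refine Finset.card_bij
    (fun p hp => (⟨s(p.1, p.2), ?_⟩ : {x : Sym2 (Fin n) // ¬ x.IsDiag})) ?_ ?_ ?_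
  · rw [Finset.mem_product, Finset.mem_compl] at hp
    rw [Sym2.mk_isDiag_iff]
    intro h
    exact hp.2 (h ▸ hp.1)
  · intro p hp
    rw [Finset.mem_product, Finset.mem_compl] at hp
    simp only [Finset.mem_filter, Finset.mem_univ, true_and]
    exact ⟨p.1, p.2, rfl, hp.1, hp.2⟩
  · intro p hp q hq h
    rw [Finset.mem_product, Finset.mem_compl] at hp hq
    have h' : s(p.1, p.2) = s(q.1, q.2) := congrArg Subtype.val h
    rw [Sym2.eq_iff] at h'
    rcases h' with ⟨h1, h2⟩ | ⟨h1, h2⟩
    · exact Prod.ext h1 h2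
    · exact absurd (h1 ▸ hp.1) hq.2
  · intro e he
    simp only [Finset.mem_filter, Finset.mem_univ, true_and] at he
    obtain ⟨u, v, huv, hu, hv⟩ := he
    refine ⟨(u, v), ?_, ?_⟩
    · rw [Finset.mem_product, Finset.mem_compl]
      exact ⟨hu, hv⟩
    · exact Subtype.ext huv.symm

theorem complete_conn (k : ℕ) : (completeM (k + 1)).EdgeConnected k := by
  intro S hne hun
  rw [complete_cut]
  have h1 : 1 ≤ S.card := hne.card_pos
  have h2 : S.card < k + 1 := by
    have := Finset.card_lt_univ_of_notMem (s := S) (x := (Finset.univ \ S).min' ?_) ?_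
    · simpa using this
    · rw [Finset.sdiff_nonempty]
      intro h
      exact hun (Finset.eq_univ_of_forall (fun x => h (Finset.mem_univ x)))
    · have := Finset.min'_mem (Finset.univ \ S) ?_
      · exact (Finset.mem_sdiff.mp this).2
  obtain ⟨a, ha⟩ : ∃ a, S.card = a + 1 := ⟨S.card - 1, by omega⟩
  obtain ⟨b, hb⟩ : ∃ b, k + 1 - S.card = b + 1 := ⟨k - S.card, by omega⟩
  rw [hb, ha]
  have : k = a + b + 1 := by omega
  rw [this]
  nlinarith

/-- In any multigraph, a spanning tree has a vertex set crossed by all of its edge copies. -/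
theorem tree_full_cut (G : MGraph V E) (T : Finset E) (hT : G.IsSpanningTree T)
    (hV : 2 ≤ Fintype.card V) :
    ∃ S : Finset V, S.Nonempty ∧ S ≠ Finset.univ ∧ G.cutSize T S = T.card := by
  obtain ⟨hcard, hconn⟩ := hT
  set H := G.graphOf T with hH
  have hedge : H.edgeSet ⊆ ((T.image G.ends : Finset (Sym2 V)) : Set (Sym2 V)) := by
    intro x hx
    rw [hH, MGraph.graphOf, SimpleGraph.edgeSet_fromEdgeSet] at hx
    obtain ⟨e, he, rfl⟩ := hx.1
    exact Finset.mem_coe.mpr (Finset.mem_image_of_mem _ he)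
  have hle : Nat.card H.edgeSet ≤ T.card := by
    calc Nat.card H.edgeSet ≤ Nat.card ((T.image G.ends : Finset (Sym2 V)) : Set (Sym2 V)) :=
          Nat.card_mono (Finset.finite_toSet _) hedge
      _ = (T.image G.ends).card := by simp
      _ ≤ T.card := Finset.card_image_le
  have hge : Nat.card V ≤ Nat.card H.edgeSet + 1 := hconn.card_vert_le_card_edgeSet_add_one
  have htree : H.IsTree := by
    rw [SimpleGraph.isTree_iff_connected_and_card]
    refine ⟨hconn, ?_⟩
    have hVc : Nat.card V = Fintype.card V := Nat.card_eq_fintype_card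
    omega
  obtain ⟨c⟩ := htree.isBipartite
  have hadj : ∀ e ∈ T, ∀ u v, G.ends e = s(u, v) → H.Adj u v := by
    intro e he u v huv
    rw [hH, MGraph.graphOf, SimpleGraph.fromEdgeSet_adj]
    refine ⟨⟨e, he, huv⟩, ?_⟩
    intro h
    have := G.loopless e
    rw [huv] at this
    exact this (by simpa using h)
  have hcross : ∀ e ∈ T, G.Crosses (Finset.univ.filter (fun v => c v = 0)) e := by
    intro e he
    induction hx : G.ends e using Sym2.ind with
    | _ u v =>
      have hne : c u ≠ c v := c.valid (hadj e he u v hx)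
      by_cases hu : c u = 0
      · refine ⟨u, v, hx, by simp [hu], ?_⟩
        simp only [Finset.mem_filter, Finset.mem_univ, true_and]
        intro hv
        exact hne (hu.trans hv.symm)
      · refine ⟨v, u, by rw [hx, Sym2.eq_swap], ?_, by simp [hu]⟩
        simp only [Finset.mem_filter, Finset.mem_univ, true_and]
        have h1 : c u = 1 := by omega
        have : c v ≠ 1 := fun h => hne (h1.trans h.symm)
        omega
  have hTne : T.Nonempty := by
    rw [← Finset.card_pos]
    omega
  obtain ⟨e0, he0⟩ := hTne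
  obtain ⟨u0, v0, _, hu0, hv0⟩ := hcross e0 he0
  refine ⟨Finset.univ.filter (fun v => c v = 0), ⟨u0, hu0⟩, ?_, ?_⟩
  · intro h
    exact hv0 (by rw [h]; exact Finset.mem_univ v0)
  · unfold MGraph.cutSize
    rw [Finset.filter_true_of_mem hcross]

theorem complete_lower (k : ℕ) (hk : 1 ≤ k) (T : Finset {x : Sym2 (Fin (k + 1)) // ¬ x.IsDiag})
    (hT : (completeM (k + 1)).IsSpanningTree T) (α : ℝ) (hα : (completeM (k + 1)).IsThin T α) :
    4 * (k : ℝ) / ((k : ℝ) + 1) ^ 2 ≤ α := by
  obtain ⟨S, hne, hun, hS⟩ := tree_full_cut _ T hT (by simp; omega)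
  have h := hα S hne hun
  rw [hS, complete_cut] at h
  have hTc : T.card = k := by
    have := hT.1
    simp at this
    exact this
  rw [hTc] at h
  have hle : S.card ≤ k + 1 := by
    simpa using Finset.card_le_univ S
  have hk' : (1 : ℝ) ≤ k := by exact_mod_cast hk
  push_cast [Nat.cast_sub hle] at h
  set a : ℝ := (S.card : ℝ) with ha
  have hprod : a * ((k : ℝ) + 1 - a) ≤ ((k : ℝ) + 1) ^ 2 / 4 := by nlinarith [sq_nonneg (2 * a - (k + 1))]
  have hαpos : 0 < α := by
    by_contra hneg
    rw [not_lt] at hneg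
    have ha0 : 0 ≤ a := Nat.cast_nonneg _
    have ha1 : 0 ≤ (k : ℝ) + 1 - a := by
      have : a ≤ (k : ℝ) + 1 := by
        rw [ha]
        exact_mod_cast hle
      linarith
    have : α * (a * ((k : ℝ) + 1 - a)) ≤ 0 := mul_nonpos_of_nonpos_of_nonneg hneg (mul_nonneg ha0 ha1)
    linarith
  rw [div_le_iff₀ (by positivity)]
  have := mul_le_mul_of_nonneg_left hprod hαpos.le
  linarith

/-- Lower bounds for the thinness that can be guaranteed.
(1) For every `k ≥ 1` there is a `k`-edge-connected (multi)graph on `k + 1` vertices none of whose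
spanning trees is `α`-thin for any `α < 4k/(k+1)^2`.
(2) Hence any constant `C` for which the strong thin tree conjecture holds satisfies `C ≥ 4`. -/
theorem result :
    (∀ k : ℕ, 1 ≤ k → ∃ (V E : Type) (_ : Fintype V) (_ : Fintype E) (G : MGraph V E),
      Fintype.card V = k + 1 ∧ G.EdgeConnected k ∧
      ∀ T : Finset E, G.IsSpanningTree T → ∀ α : ℝ, G.IsThin T α →
        4 * (k : ℝ) / ((k : ℝ) + 1) ^ 2 ≤ α) ∧
    (∀ C : ℝ,
      (∀ k : ℕ, 1 ≤ k → ∀ (V E : Type) [Fintype V] [Fintype E] (G : MGraph V E),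
        2 ≤ Fintype.card V → G.EdgeConnected k →
        ∃ T : Finset E, G.IsSpanningTree T ∧ G.IsThin T (C / k)) → 4 ≤ C) := by
  have part1 : ∀ k : ℕ, 1 ≤ k → ∃ (V E : Type) (_ : Fintype V) (_ : Fintype E) (G : MGraph V E),
      Fintype.card V = k + 1 ∧ G.EdgeConnected k ∧
      ∀ T : Finset E, G.IsSpanningTree T → ∀ α : ℝ, G.IsThin T α →
        4 * (k : ℝ) / ((k : ℝ) + 1) ^ 2 ≤ α := by
    intro k hk
    exact ⟨Fin (k + 1), {x : Sym2 (Fin (k + 1)) // ¬ x.IsDiag}, inferInstance, inferInstance,
      completeM (k + 1), by simp, complete_conn k, fun T hT α hα => complete_lower k hk T hT α hα⟩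
  refine ⟨part1, ?_⟩
  intro C hC
  by_contra hlt
  rw [not_le] at hlt
  obtain ⟨k, hk⟩ := exists_nat_gt (8 / (4 - C))
  have hε : 0 < 4 - C := by linarith
  have hkpos : (0 : ℝ) < k := lt_trans (by positivity) hk
  have hk1 : 1 ≤ k := by exact_mod_cast Nat.pos_of_ne_zero (by rintro rfl; simp at hkpos)
  obtain ⟨V, E, iV, iE, G, hV, hconn, hG⟩ := part1 k hk1
  obtain ⟨T, hT, hthin⟩ := hC k hk1 V E G (by omega) hconn
  have h := hG T hT _ hthin
  rw [div_le_div_iff₀ (by positivity) hkpos] at h
  rw [div_lt_iff₀ hε] at hk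
  nlinarith

end Vale.Agent.Results.P061.CompleteLower
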